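import Vale.Agent.P043.Prod

namespace Vale.P043

open Set

theorem hom_pre {G G' : Type*} [AddCommGroup G] [AddCommGroup G'] (φ : G →+ G')
    (hinj : Function.Injective φ) {F : Set G} {T : Set G'} (h : Tiles T (φ '' F)) :
    Tiles {g | φ g ∈ T} F := by
  refine Tiles.mk' (fun g => ?_) ?_
  · obtain ⟨t, ht, _, ⟨f, hf, rfl⟩, he⟩ := h.ex (φ g)
    refine ⟨g - f, ?_, f, hf, by simp⟩
    show φ (g - f) ∈ T
    rw [map_sub, ← he, add_sub_cancel_right]
    exact ht
  · intro a ha b hb f hf g hg he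
    have h1 := h.uniq ha hb (mem_image_of_mem _ hf) (mem_image_of_mem _ hg)
      (by rw [← map_add, ← map_add, he])
    exact ⟨hinj h1.1, hinj h1.2⟩

/-- The tiling of the big group induced by a tiling of a subgroup. -/
noncomputable def rep {G G' : Type*} [AddCommGroup G] [AddCommGroup G'] (φ : G →+ G') (v : G') :
    G' := (QuotientAddGroup.mk v : G' ⧸ φ.range).out

theorem rep_mem {G G' : Type*} [AddCommGroup G] [AddCommGroup G'] (φ : G →+ G') (v : G') :
    ∃ g, φ g = v - rep φ v := by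
  have h1 : (QuotientAddGroup.mk (rep φ v) : G' ⧸ φ.range) = QuotientAddGroup.mk v :=
    Quotient.out_eq' _
  have h2 := QuotientAddGroup.eq.1 h1
  rw [sub_eq_neg_add]
  exact h2

theorem rep_add {G G' : Type*} [AddCommGroup G] [AddCommGroup G'] (φ : G →+ G') (v : G') (x : G) :
    rep φ (v + φ x) = rep φ v := by
  have h1 : (QuotientAddGroup.mk (v + φ x) : G' ⧸ φ.range) = QuotientAddGroup.mk v := by
    rw [QuotientAddGroup.eq, show -(v + φ x) + v = φ (-x) by rw [map_neg]; abel]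
    exact ⟨_, rfl⟩
  show (QuotientAddGroup.mk (v + φ x) : G' ⧸ φ.range).out = _
  rw [h1]
  rfl

theorem hom_tiles {G G' : Type*} [AddCommGroup G] [AddCommGroup G'] (φ : G →+ G')
    (hinj : Function.Injective φ) {F S : Set G} (hS : Tiles S F) :
    Tiles {t | ∃ s ∈ S, φ s = t - rep φ t} (φ '' F) := by
  refine Tiles.mk' (fun v => ?_) ?_
  · obtain ⟨g, hg⟩ := rep_mem φ v
    obtain ⟨s, hs, f, hf, he⟩ := hS.ex g
    refine ⟨v - φ f, ⟨s, hs, ?_⟩, φ f, mem_image_of_mem _ hf, by abel⟩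
    have h1 : rep φ (v - φ f) = rep φ v := by
      rw [sub_eq_add_neg, ← map_neg, rep_add]
    rw [h1, show s = g - f by rw [← he]; abel, map_sub, hg]
    abel
  · rintro a ⟨s, hs, ha⟩ b ⟨t, ht, hb⟩ _ ⟨f, hf, rfl⟩ _ ⟨g, hg, rfl⟩ he
    have h1 : rep φ a = rep φ b := by
      rw [← rep_add φ a f, ← rep_add φ b g, he]
    have h2 : φ (s + f) = φ (t + g) := by
      rw [map_add, map_add, ha, hb, h1, sub_add_eq_add_sub, he, add_sub_right_comm]
    have h3 := hS.uniq hs ht hf hg (hinj h2)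
    refine ⟨?_, by rw [h3.2]⟩
    rw [h3.2] at he
    exact add_right_cancel he

theorem hom_periodic {G G' : Type*} [AddCommGroup G] [AddCommGroup G'] (φ : G →+ G')
    (hinj : Function.Injective φ) (hfin : φ.range.FiniteIndex) {S : Set G} (hS : Periodic S) :
    Periodic {t | ∃ s ∈ S, φ s = t - rep φ t} := by
  obtain ⟨K, hK, hper⟩ := hS
  refine ⟨K.map φ, ⟨?_⟩, ?_⟩
  · rw [AddSubgroup.index_map, (AddMonoidHom.ker_eq_bot_iff φ).2 hinj, sup_bot_eq]
    exact mul_ne_zero hK.index_ne_zero hfin.index_ne_zero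
  · rintro _ ⟨k, hk, rfl⟩ a
    have h1 : a + φ k - rep φ (a + φ k) = a - rep φ a + φ k := by
      rw [rep_add]; abel
    constructor
    · rintro ⟨s, hs, he⟩
      rw [h1] at he
      refine ⟨s + -k, (hper _ (K.neg_mem hk) s).2 hs, ?_⟩
      rw [map_add, he, map_neg]
      abel
    · rintro ⟨s, hs, he⟩
      refine ⟨s + k, (hper k hk s).2 hs, ?_⟩
      rw [h1, map_add, he]

end Vale.P043
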