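import Mathlib

namespace Vale.P043

open Set

/-- `A ⊕ F = G`. -/
def Tiles {G : Type*} [AddCommGroup G] (A F : Set G) : Prop :=
  ∀ g : G, ∃! p : G × G, p.1 ∈ A ∧ p.2 ∈ F ∧ p.1 + p.2 = g

/-- `A` is invariant under a subgroup of finite index. -/
def Periodic {G : Type*} [AddCommGroup G] (A : Set G) : Prop :=
  ∃ K : AddSubgroup G, K.FiniteIndex ∧ ∀ h ∈ K, ∀ a : G, a + h ∈ A ↔ a ∈ A

theorem Tiles.uniq {G : Type*} [AddCommGroup G] {A F : Set G} (h : Tiles A F) {a b f g : G}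
    (ha : a ∈ A) (hb : b ∈ A) (hf : f ∈ F) (hg : g ∈ F) (he : a + f = b + g) : a = b ∧ f = g := by
  obtain ⟨p, _, hp⟩ := h (a + f)
  have h1 := hp (a, f) ⟨ha, hf, rfl⟩
  have h2 := hp (b, g) ⟨hb, hg, he.symm⟩
  have h3 := h1.trans h2.symm
  exact ⟨congrArg Prod.fst h3, congrArg Prod.snd h3⟩

theorem Tiles.ex {G : Type*} [AddCommGroup G] {A F : Set G} (h : Tiles A F) (g : G) :
    ∃ a ∈ A, ∃ f ∈ F, a + f = g := by
  obtain ⟨p, hp, _⟩ := h g
  exact ⟨p.1, hp.1, p.2, hp.2.1, hp.2.2⟩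

theorem Tiles.mk' {G : Type*} [AddCommGroup G] {A F : Set G}
    (h1 : ∀ g : G, ∃ a ∈ A, ∃ f ∈ F, a + f = g)
    (h2 : ∀ a ∈ A, ∀ b ∈ A, ∀ f ∈ F, ∀ g ∈ F, a + f = b + g → a = b ∧ f = g) : Tiles A F := by
  intro g
  obtain ⟨a, ha, f, hf, he⟩ := h1 g
  refine ⟨(a, f), ⟨ha, hf, he⟩, ?_⟩
  rintro ⟨b, k⟩ ⟨hb, hk, hbk⟩
  obtain ⟨h3, h4⟩ := h2 a ha b hb f hf k hk (he.trans hbk.symm)
  rw [h3, h4]

/-! ### dimension one -/

theorem mem_iff {A F : Set ℤ} (h : Tiles A F) {f₀ : ℤ} (hf₀ : f₀ ∈ F) (x : ℤ) :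
    x ∈ A ↔ ∀ f ∈ F, f ≠ f₀ → x + f₀ - f ∉ A := by
  constructor
  · intro hx f hf hne hmem
    exact hne ((h.uniq hmem hx hf hf₀ (by ring)).2)
  · intro hall
    obtain ⟨a, ha, f, hf, he⟩ := h.ex (x + f₀)
    by_cases hff : f = f₀
    · subst hff
      have : a = x := by linarith
      rwa [← this]
    · exact absurd (by rw [← he]; simpa using ha) (hall f hf hff)

theorem newman {A F : Set ℤ} (h : Tiles A F) (hF : F.Finite) :
    ∃ D : ℕ, 0 < D ∧ ∀ x : ℤ, x + D ∈ A ↔ x ∈ A := by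
  classical
  have hne : F.Nonempty := by
    obtain ⟨_, _, f, hf, _⟩ := h.ex 0
    exact ⟨f, hf⟩
  obtain ⟨f₀, hf₀, hmin'⟩ : ∃ f₀ ∈ F, ∀ f ∈ F, f₀ ≤ f := Set.exists_min_image F id hF hne
  obtain ⟨f₁, hf₁, hmax'⟩ : ∃ f₁ ∈ F, ∀ f ∈ F, f ≤ f₁ := Set.exists_max_image F id hF hne
  obtain ⟨L, hL⟩ : ∃ L : ℕ, (L : ℤ) = f₁ - f₀ := ⟨(f₁ - f₀).toNat, by
    have := hmin' f₁ hf₁
    omega⟩
  obtain ⟨n, m, hnm, hst⟩ := Finite.exists_ne_map_eq_of_infinite
    (fun n : ℕ => ({j : Fin L | (n : ℤ) + (j : ℕ) ∈ A} : Set (Fin L)))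
  wlog hlt : n < m generalizing n m
  · exact this m n hnm.symm hst.symm (by omega)
  obtain ⟨D, hD⟩ : ∃ D : ℕ, m = n + D := ⟨m - n, by omega⟩
  have hbase : ∀ j : ℕ, j < L → ((n : ℤ) + j + D ∈ A ↔ (n : ℤ) + j ∈ A) := by
    intro j hj
    have h1 := Set.ext_iff.1 hst ⟨j, hj⟩
    simp only [mem_setOf_eq] at h1
    rw [h1, hD]
    push_cast
    rw [show (n : ℤ) + D + j = n + j + D by ring]
  have hfwd : ∀ j : ℕ, ((n : ℤ) + j + D ∈ A ↔ (n : ℤ) + j ∈ A) := by
    intro j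
    induction j using Nat.strong_induction_on with
    | _ j ih =>
      by_cases hj : j < L
      · exact hbase j hj
      · rw [mem_iff h hf₀, mem_iff h hf₀ ((n : ℤ) + j)]
        refine forall_congr' fun f => forall_congr' fun hf => forall_congr' fun hne' => ?_
        have h1 := hmin' f hf
        have h2 := hmax' f hf
        obtain ⟨i, hi⟩ : ∃ i : ℕ, (i : ℤ) = j + f₀ - f := ⟨(j + f₀ - f).toNat, by omega⟩
        have h3 := ih i (by omega)
        rw [show (n : ℤ) + j + D + f₀ - f = n + i + D by rw [hi]; ring,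
          show (n : ℤ) + j + f₀ - f = n + i by rw [hi]; ring, h3]
  have hbwd : ∀ j : ℕ, ((n : ℤ) + L - j + D ∈ A ↔ (n : ℤ) + L - j ∈ A) := by
    intro j
    induction j using Nat.strong_induction_on with
    | _ j ih =>
      by_cases hj : j ≤ L
      · obtain ⟨i, hi⟩ : ∃ i : ℕ, j + i = L := ⟨L - j, by omega⟩
        have h3 := hfwd i
        rw [show (n : ℤ) + L - j = n + i by omega]
        exact h3
      · rw [mem_iff h hf₁, mem_iff h hf₁ ((n : ℤ) + L - j)]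
        refine forall_congr' fun f => forall_congr' fun hf => forall_congr' fun hne' => ?_
        have h1 := hmin' f hf
        have h2 := hmax' f hf
        obtain ⟨i, hi⟩ : ∃ i : ℕ, (i : ℤ) = j - f₁ + f := ⟨(j - f₁ + f).toNat, by omega⟩
        have h3 := ih i (by omega)
        rw [show (n : ℤ) + L - j + D + f₁ - f = n + L - i + D by rw [hi]; ring,
          show (n : ℤ) + L - j + f₁ - f = n + L - i by rw [hi]; ring, h3]
  refine ⟨D, by omega, fun x => ?_⟩
  rcases le_total (n : ℤ) x with hx | hx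
  · obtain ⟨j, hj⟩ : ∃ j : ℕ, (j : ℤ) = x - n := ⟨(x - n).toNat, by omega⟩
    have := hfwd j
    rwa [show (n : ℤ) + j = x by omega] at this
  · obtain ⟨j, hj⟩ : ∃ j : ℕ, (j : ℤ) = n + L - x := ⟨(n + L - x).toNat, by omega⟩
    have := hbwd j
    rwa [show (n : ℤ) + L - j = x by omega] at this

theorem newman_mul {A : Set ℤ} {D : ℕ} (h : ∀ x : ℤ, x + D ∈ A ↔ x ∈ A) (k x : ℤ) :
    x + k * D ∈ A ↔ x ∈ A := by
  induction k using Int.induction_on with
  | zero => simp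
  | succ i ih => rw [← ih, ← h (x + i * D), show x + (i + 1) * (D : ℤ) = x + i * D + D by ring]
  | pred i ih =>
    rw [← ih, ← h (x + (-i - 1) * D), show x + (-i - 1) * (D : ℤ) + D = x + -i * D by ring]

/-! ### binary products -/

theorem prod_left {G H : Type*} [AddCommGroup G] [AddCommGroup H] {T : Set (G × H)} {A : Set G}
    {B : Set H} (h : Tiles T (A ×ˢ B)) : Tiles {g : G | ∃ t : H, (g, t) ∈ T ∧ -t ∈ B} A := by
  refine Tiles.mk' (fun g => ?_) ?_
  · obtain ⟨⟨a, t⟩, ha, ⟨f, k⟩, hf, he⟩ := h.ex (g, 0)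
    have h1 : a + f = g := congrArg Prod.fst he
    have h2 : t + k = 0 := congrArg Prod.snd he
    refine ⟨a, ⟨t, ha, ?_⟩, f, hf.1, h1⟩
    rw [show -t = k from neg_eq_of_add_eq_zero_right h2]
    exact hf.2
  · rintro a ⟨s, ha, hs⟩ b ⟨t, hb, ht⟩ f hf g hg he
    have h1 := h.uniq ha hb (f := (f, -s)) (g := (g, -t)) ⟨hf, hs⟩ ⟨hg, ht⟩
      (Prod.ext he (by simp))
    exact ⟨congrArg Prod.fst h1.1, congrArg Prod.fst h1.2⟩

theorem prod_right {G H : Type*} [AddCommGroup G] [AddCommGroup H] {T : Set (G × H)} {A : Set G}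
    {B : Set H} (h : Tiles T (A ×ˢ B)) : Tiles {t : H | ∃ g : G, (g, t) ∈ T ∧ -g ∈ A} B := by
  refine Tiles.mk' (fun g => ?_) ?_
  · obtain ⟨⟨a, t⟩, ha, ⟨f, k⟩, hf, he⟩ := h.ex (0, g)
    have h1 : a + f = 0 := congrArg Prod.fst he
    have h2 : t + k = g := congrArg Prod.snd he
    refine ⟨t, ⟨a, ha, ?_⟩, k, hf.2, h2⟩
    rw [show -a = f from neg_eq_of_add_eq_zero_right h1]
    exact hf.1
  · rintro a ⟨s, ha, hs⟩ b ⟨t, hb, ht⟩ f hf g hg he
    have h1 := h.uniq ha hb (f := (-s, f)) (g := (-t, g)) ⟨hs, hf⟩ ⟨ht, hg⟩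
      (Prod.ext (by simp) he)
    exact ⟨congrArg Prod.snd h1.1, congrArg Prod.snd h1.2⟩

theorem prod_mk {G H : Type*} [AddCommGroup G] [AddCommGroup H] {S A : Set G} {T B : Set H}
    (h₁ : Tiles S A) (h₂ : Tiles T B) : Tiles (S ×ˢ T) (A ×ˢ B) := by
  refine Tiles.mk' (fun g => ?_) ?_
  · obtain ⟨a, ha, f, hf, he⟩ := h₁.ex g.1
    obtain ⟨b, hb, k, hk, hh⟩ := h₂.ex g.2
    exact ⟨(a, b), ⟨ha, hb⟩, (f, k), ⟨hf, hk⟩, Prod.ext he hh⟩
  · rintro a ha b hb f hf g hg he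
    have h1 := h₁.uniq ha.1 hb.1 hf.1 hg.1 (congrArg Prod.fst he)
    have h2 := h₂.uniq ha.2 hb.2 hf.2 hg.2 (congrArg Prod.snd he)
    exact ⟨Prod.ext h1.1 h2.1, Prod.ext h1.2 h2.2⟩

theorem prod_periodic {G H : Type*} [AddCommGroup G] [AddCommGroup H] {S : Set G} {T : Set H}
    (h₁ : Periodic S) (h₂ : Periodic T) : Periodic (S ×ˢ T) := by
  obtain ⟨K, hK, hS⟩ := h₁
  obtain ⟨M, hM, hT⟩ := h₂
  refine ⟨K.prod M, ?_, ?_⟩
  · exact ⟨by rw [AddSubgroup.index_prod]; exact mul_ne_zero hK.index_ne_zero hM.index_ne_zero⟩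
  · rintro ⟨k, m⟩ hkm ⟨a, b⟩
    rw [AddSubgroup.mem_prod] at hkm
    simp only [Prod.mk_add_mk, mem_prod]
    rw [hS k hkm.1 a, hT m hkm.2 b]

/-! ### products in `ℤ^d` and their linear images -/

theorem pi_slice {d : ℕ} {T : Set (Fin d → ℤ)} {A : Fin d → Set ℤ}
    (h : Tiles T (Set.pi univ A)) (i : Fin d) :
    Tiles {x : ℤ | ∃ t ∈ T, t i = x ∧ ∀ j, j ≠ i → -t j ∈ A j} (A i) := by
  classical
  refine Tiles.mk' (fun g => ?_) ?_
  · obtain ⟨t, ht, f, hf, he⟩ := h.ex (Pi.single i g)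
    refine ⟨t i, ⟨t, ht, rfl, fun j hj => ?_⟩, f i, hf i (mem_univ i), ?_⟩
    · have h1 := congrFun he j
      rw [Pi.add_apply, Pi.single_eq_of_ne hj] at h1
      rw [show -t j = f j by linarith]
      exact hf j (mem_univ j)
    · have h1 := congrFun he i
      rwa [Pi.add_apply, Pi.single_eq_same] at h1
  · rintro _ ⟨s, hs, rfl, hs'⟩ _ ⟨t, ht, rfl, ht'⟩ f hf g hg he
    have h1 := h.uniq hs ht (f := Function.update (-s) i f) (g := Function.update (-t) i g) ?_ ?_ ?_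
    · refine ⟨congrFun h1.1 i, ?_⟩
      have := congrFun h1.2 i
      simpa using this
    · intro j _
      by_cases hj : j = i
      · subst hj; simpa using hf
      · rw [Function.update_of_ne hj]; exact hs' j hj
    · intro j _
      by_cases hj : j = i
      · subst hj; simpa using hg
      · rw [Function.update_of_ne hj]; exact ht' j hj
    · funext j
      by_cases hj : j = i
      · subst hj; simpa using he
      · simp [Function.update_of_ne hj]

theorem pi_mk {d : ℕ} {S A : Fin d → Set ℤ} (h : ∀ i, Tiles (S i) (A i)) :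
    Tiles (Set.pi univ S) (Set.pi univ A) := by
  refine Tiles.mk' (fun g => ?_) ?_
  · choose a ha f hf he using fun i => (h i).ex (g i)
    exact ⟨a, fun i _ => ha i, f, fun i _ => hf i, funext he⟩
  · intro a ha b hb f hf g hg he
    have h1 := fun i => (h i).uniq (ha i (mem_univ i)) (hb i (mem_univ i)) (hf i (mem_univ i))
      (hg i (mem_univ i)) (congrFun he i)
    exact ⟨funext fun i => (h1 i).1, funext fun i => (h1 i).2⟩

/-- A product tile has a tiling invariant under `N ℤ^d`. -/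
theorem pi_tile {d : ℕ} {T : Set (Fin d → ℤ)} {A : Fin d → Set ℤ} (hA : ∀ i, (A i).Finite)
    (h : Tiles T (Set.pi univ A)) :
    ∃ S : Set (Fin d → ℤ), Tiles S (Set.pi univ A) ∧ ∃ N : ℕ, 0 < N ∧
      ∀ w x : Fin d → ℤ, x + (N : ℤ) • w ∈ S ↔ x ∈ S := by
  classical
  have h1 := fun i => pi_slice h i
  choose D hD hper using fun i => newman (h1 i) (hA i)
  refine ⟨_, pi_mk h1, ∏ i, D i, Finset.prod_pos fun i _ => hD i, fun w x => ?_⟩
  rw [Set.mem_univ_pi, Set.mem_univ_pi]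
  refine forall_congr' fun i => ?_
  obtain ⟨k, hk⟩ := Finset.dvd_prod_of_mem D (Finset.mem_univ i)
  have h2 := newman_mul (hper i) (k * w i) (x i)
  rw [← h2, Pi.add_apply, Pi.smul_apply, hk, smul_eq_mul]
  push_cast
  rw [show x i + (D i : ℤ) * k * w i = x i + k * w i * D i by ring]

theorem multiples_finiteIndex {d : ℕ} {N : ℤ} (hN : N ≠ 0) (K : AddSubgroup (Fin d → ℤ))
    (hK : ∀ w : Fin d → ℤ, N • w ∈ K) : K.FiniteIndex := by
  have : NeZero N.natAbs := ⟨by simpa using hN⟩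
  let φ : (Fin d → ℤ) →+ (Fin d → ZMod N.natAbs) :=
    { toFun := fun x i => (x i : ZMod N.natAbs)
      map_zero' := by funext i; simp
      map_add' := fun x y => by funext i; simp }
  have hle : φ.ker ≤ K := by
    intro x hx
    rw [AddMonoidHom.mem_ker] at hx
    have h1 : ∀ i, N ∣ x i := fun i => by
      have h2 : ((x i : ℤ) : ZMod N.natAbs) = 0 := congrFun hx i
      rw [ZMod.intCast_zmod_eq_zero_iff_dvd] at h2
      simpa using h2
    choose w hw using h1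
    rw [show x = N • w from funext fun i => by rw [Pi.smul_apply, smul_eq_mul]; exact hw i]
    exact hK w
  have : Finite (Fin d → ZMod N.natAbs) := inferInstance
  have hf : φ.ker.FiniteIndex := inferInstance
  exact AddSubgroup.finiteIndex_of_le hle

/-- Linear images of product tiles tile periodically. -/
theorem image_tile {d : ℕ} (M : Matrix (Fin d) (Fin d) ℤ) (hM : M.det ≠ 0) {A : Fin d → Set ℤ}
    (hA : ∀ i, (A i).Finite) {T : Set (Fin d → ℤ)}
    (h : Tiles T (M.mulVec '' Set.pi univ A)) :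
    ∃ S : Set (Fin d → ℤ), Tiles S (M.mulVec '' Set.pi univ A) ∧ Periodic S := by
  classical
  have hinj : Function.Injective M.mulVec := by
    intro x y hxy
    have h1 := congrArg M.adjugate.mulVec hxy
    simp only [Matrix.mulVec_mulVec, Matrix.adjugate_mul, Matrix.smul_mulVec,
      Matrix.one_mulVec] at h1
    exact smul_right_injective _ hM h1
  -- the tiling of the preimage
  have h0 : Tiles {g | M.mulVec g ∈ T} (Set.pi univ A) := by
    refine Tiles.mk' (fun g => ?_) ?_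
    · obtain ⟨t, ht, _, ⟨f, hf, rfl⟩, he⟩ := h.ex (M.mulVec g)
      refine ⟨g - f, ?_, f, hf, by simp⟩
      rw [mem_setOf_eq, Matrix.mulVec_sub, ← he, add_sub_cancel_right]
      exact ht
    · intro a ha b hb f hf g hg he
      have h1 := h.uniq ha hb (mem_image_of_mem _ hf) (mem_image_of_mem _ hg)
        (by rw [← Matrix.mulVec_add, ← Matrix.mulVec_add, he])
      exact ⟨hinj h1.1, hinj h1.2⟩
  obtain ⟨S, hS, N, hN, hper⟩ := pi_tile hA h0
  let K : AddSubgroup (Fin d → ℤ) := (M.mulVecLin).toAddMonoidHom.range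
  have hKm : ∀ x, M.mulVec x ∈ K := fun x => ⟨x, rfl⟩
  let r : (Fin d → ℤ) → (Fin d → ℤ) := fun v => (QuotientAddGroup.mk v : (Fin d → ℤ) ⧸ K).out
  have hr1 : ∀ v, v - r v ∈ K := fun v => by
    have h1 : (QuotientAddGroup.mk (r v) : (Fin d → ℤ) ⧸ K) = QuotientAddGroup.mk v :=
      Quotient.out_eq' _
    have h2 := QuotientAddGroup.eq.1 h1
    rw [sub_eq_neg_add]
    exact h2
  have hr2 : ∀ v x, r (v + M.mulVec x) = r v := fun v x => by
    have h1 : (QuotientAddGroup.mk (v + M.mulVec x) : (Fin d → ℤ) ⧸ K) = QuotientAddGroup.mk v := by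
      rw [QuotientAddGroup.eq]
      rw [show -(v + M.mulVec x) + v = M.mulVec (-x) by rw [Matrix.mulVec_neg]; abel]
      exact hKm _
    show (QuotientAddGroup.mk (v + M.mulVec x) : (Fin d → ℤ) ⧸ K).out = _
    rw [h1]
  refine ⟨{t | ∃ s ∈ S, M.mulVec s = t - r t}, ?_, ?_⟩
  · refine Tiles.mk' (fun v => ?_) ?_
    · obtain ⟨g, hg⟩ := hr1 v
      have hg' : M.mulVec g = v - r v := hg
      obtain ⟨s, hs, f, hf, he⟩ := hS.ex g
      refine ⟨v - M.mulVec f, ⟨s, hs, ?_⟩, M.mulVec f, mem_image_of_mem _ hf, by abel⟩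
      have h1 : r (v - M.mulVec f) = r v := by
        rw [sub_eq_add_neg, ← Matrix.mulVec_neg, hr2]
      rw [h1, show s = g - f by rw [← he]; abel, Matrix.mulVec_sub, hg']
      abel
    · rintro a ⟨s, hs, ha⟩ b ⟨t, ht, hb⟩ _ ⟨f, hf, rfl⟩ _ ⟨g, hg, rfl⟩ he
      have h1 : r a = r b := by
        rw [← hr2 a f, ← hr2 b g, he]
      have h2 : M.mulVec (s + f) = M.mulVec (t + g) := by
        rw [Matrix.mulVec_add, Matrix.mulVec_add, ha, hb, h1]
        rw [sub_add_eq_add_sub, he, add_sub_right_comm]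
      have h3 := hS.uniq hs ht hf hg (hinj h2)
      refine ⟨?_, by rw [h3.2]⟩
      rw [h3.2] at he
      exact add_right_cancel he
  · let P : AddSubgroup (Fin d → ℤ) :=
      { carrier := {v | ∃ w : Fin d → ℤ, v = M.mulVec ((N : ℤ) • w)}
        add_mem' := by
          rintro _ _ ⟨u, rfl⟩ ⟨w, rfl⟩
          exact ⟨u + w, by rw [smul_add, Matrix.mulVec_add]⟩
        zero_mem' := ⟨0, by simp⟩
        neg_mem' := by
          rintro _ ⟨u, rfl⟩
          exact ⟨-u, by rw [smul_neg, Matrix.mulVec_neg]⟩ }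
    refine ⟨P, multiples_finiteIndex (N := (N : ℤ) * M.det)
      (mul_ne_zero (by exact_mod_cast hN.ne') hM) P fun w => ?_, ?_⟩
    · refine ⟨M.adjugate.mulVec w, ?_⟩
      rw [Matrix.mulVec_smul, Matrix.mulVec_mulVec, Matrix.mul_adjugate, Matrix.smul_mulVec,
        Matrix.one_mulVec, mul_smul]
    · rintro _ ⟨w, rfl⟩ a
      have h1 : a + M.mulVec ((N : ℤ) • w) - r (a + M.mulVec ((N : ℤ) • w)) =
          a - r a + M.mulVec ((N : ℤ) • w) := by
        rw [hr2]; abel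
      constructor
      · rintro ⟨s, hs, he⟩
        rw [h1] at he
        refine ⟨s + (N : ℤ) • (-w), (hper _ _).2 hs, ?_⟩
        rw [Matrix.mulVec_add, he, smul_neg, Matrix.mulVec_neg]
        abel
      · rintro ⟨s, hs, he⟩
        refine ⟨s + (N : ℤ) • w, (hper _ _).2 hs, ?_⟩
        rw [h1, Matrix.mulVec_add, he]

end Vale.P043
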